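import Vale.Agent.P032.Words.H349.TieL

/-!
# Words on a circle with exact contacts: user level forms of L1, L2, L3

The same statements as in `Words/Sym.lean`, for `RawT` in place of `Raw`.  The ends `End X x y V` are the
same as there.
-/

namespace Vale.Agent.P032.Words

open Set Filter Topology

variable {X : Fin 4 → Set ℝ}

/-- A word without exact contacts is a word with exact contacts. -/
theorem Raw.rawT (R : Raw X) (two : ∀ u l m n, u ∈ X l → u ∈ X m → u ∈ X n → l = m ∨ m = n ∨ n = l) :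
    RawT X where
  closed := R.closed
  cover := R.cover
  per := R.per
  anti := R.anti
  ac := R.ac
  two := two
  own := fun u l h h' => absurd h' (R.sixty l u h)
  own' := fun u l h h' => absurd h' (R.sixty l u h)
  swap := fun u l _ h h' => absurd h' (R.sixty l u h)
  dbl := fun u l _ _ h h' => absurd h' (R.sixty l u h)
  three := fun u l _ _ h h' => absurd h' (R.sixty l u h)

theorem RawT.anti' (R : RawT X) (u : ℝ) (h : u ∈ X 3) : u + 3 ∉ X 2 := fun h' =>
  R.anti _ h' (by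
    have : u + 3 + 3 = u + 6 := by ring
    rw [this, R.per]; exact h)

/-- renaming of the letters by `σ` -/
theorem RawT.perm (R : RawT X) (σ : Equiv.Perm (Fin 4)) (hσ : ∀ l, l.val < 2 → (σ.symm l).val < 2)
    (h23 : (σ 2 = 2 ∧ σ 3 = 3) ∨ (σ 2 = 3 ∧ σ 3 = 2)) : RawT fun l => X (σ l) where
  closed := fun l => R.closed _
  cover := fun u => by
    obtain ⟨l, hl⟩ := R.cover u
    exact ⟨σ.symm l, by rw [Equiv.apply_symm_apply]; exact hl⟩
  per := fun l u => R.per _ u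
  anti := by
    rcases h23 with ⟨h2, h3⟩ | ⟨h2, h3⟩ <;> rw [h2, h3]
    · exact R.anti
    · exact R.anti'
  ac := by
    rcases h23 with ⟨h2, h3⟩ | ⟨h2, h3⟩ <;> rw [h2, h3]
    · exact R.ac
    · exact fun u h h' => R.ac u h' h
  two := fun u l m n h1 h2 h3 => by
    rcases R.two u _ _ _ h1 h2 h3 with h | h | h
    · exact Or.inl (σ.injective h)
    · exact Or.inr (Or.inl (σ.injective h))
    · exact Or.inr (Or.inr (σ.injective h))
  own := fun u l h1 h2 => by
    obtain ⟨m, hm, h⟩ := R.own u _ h1 h2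
    refine ⟨σ.symm m, fun e => hm ?_, by rw [Equiv.apply_symm_apply]; exact h⟩
    rw [← e, Equiv.apply_symm_apply]
  own' := fun u l h1 h2 => by
    obtain ⟨m, hm, h⟩ := R.own' u _ h1 h2
    refine ⟨σ.symm m, fun e => hm ?_, by rw [Equiv.apply_symm_apply]; exact h⟩
    rw [← e, Equiv.apply_symm_apply]
  swap := fun u l m h1 h2 h3 h4 => σ.injective (R.swap u _ _ h1 h2 h3 h4)
  dbl := fun u l m hlm h1 h2 h3 h4 => by
    have := R.dbl u _ _ (fun h => hlm (σ.injective h)) h1 h2 h3 h4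
    have a := hσ _ this.1
    have b := hσ _ this.2
    rw [Equiv.symm_apply_apply] at a b
    exact ⟨a, b⟩
  three := fun u l m hlm h1 h2 h3 h4 => by
    have := R.three u _ _ (fun h => hlm (σ.injective h)) h1 h2 h3 h4
    rcases h23 with ⟨a, b⟩ | ⟨a, b⟩ <;> rw [a, b]
    · exact this
    · exact ⟨this.2, this.1⟩

/-- exchange of `e` and `f` -/
theorem RawT.swapEF (R : RawT X) : RawT ![X 1, X 0, X 2, X 3] := by
  have h := R.perm (Equiv.swap 0 1) (by decide) (Or.inl ⟨by decide, by decide⟩)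
  have e : (fun l => X (Equiv.swap 0 1 l)) = ![X 1, X 0, X 2, X 3] := by
    funext l; fin_cases l <;> rfl
  rw [e] at h
  exact h

/-- exchange of `A` and `C` -/
theorem RawT.swapAC (R : RawT X) : RawT ![X 0, X 1, X 3, X 2] := by
  have h := R.perm (Equiv.swap 2 3) (by decide) (Or.inr ⟨by decide, by decide⟩)
  have e : (fun l => X (Equiv.swap 2 3 l)) = ![X 0, X 1, X 3, X 2] := by
    funext l; fin_cases l <;> rfl
  rw [e] at h
  exact h

/-- **L1**: `e` meets `A` or `C`. -/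
theorem RawT.L1e (R : RawT X) : ∃ u, u ∈ X 0 ∧ (u ∈ X 2 ∨ u ∈ X 3) := by
  by_contra h
  push Not at h
  exact Tie.L1 R (fun u hu => (h u hu).1) (fun u hu => (h u hu).2) R.ac

/-- **L1**: `f` meets `A` or `C`. -/
theorem RawT.L1f (R : RawT X) : ∃ u, u ∈ X 1 ∧ (u ∈ X 2 ∨ u ∈ X 3) := R.swapEF.L1e

/-- **L2**: not exactly one end `e|A` and exactly one end `f|C`. -/
theorem RawT.L2 (R : RawT X) {V Q : ℝ} (hV : End X 0 2 V) (hQ : End X 1 3 Q)
    (hVu : ∀ u, u ∈ X 0 → u ∈ X 2 → ∃ n : ℤ, u = V + 6 * n)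
    (hQu : ∀ u, u ∈ X 1 → u ∈ X 3 → ∃ n : ℤ, u = Q + 6 * n) : False := by
  -- reduce `V` to the window `[Q, Q + 6)`, with the roles of the two ends kept
  obtain ⟨m, hm⟩ : ∃ m : ℤ, V ≤ Q + 6 * m ∧ Q + 6 * m < V + 6 := by
    refine ⟨-⌊(Q - V) / 6⌋, ?_, ?_⟩
    · have := Int.floor_le ((Q - V) / 6)
      push_cast; linarith
    · have := Int.lt_floor_add_one ((Q - V) / 6)
      push_cast; linarith
  obtain ⟨hm1, hm2⟩ := hm
  have perZ : ∀ (n : ℤ) (l : Fin 4) (u : ℝ), u + 6 * (n : ℝ) ∈ X l ↔ u ∈ X l := by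
    intro n l
    induction n with
    | zero => intro u; simp
    | succ i ih =>
      intro u
      have : u + 6 * (((i : ℤ) + 1 : ℤ) : ℝ) = (u + 6 * ((i : ℤ) : ℝ)) + 6 := by push_cast; ring
      rw [this, R.per, ih]
    | pred i ih =>
      intro u
      have : u + 6 * ((-(i : ℤ) - 1 : ℤ) : ℝ) + 6 = u + 6 * ((-(i : ℤ) : ℤ) : ℝ) := by
        push_cast; ring
      rw [← R.per, this, ih]
  have hmark : ∀ {x y : Fin 4}, Mark X x y Q → Mark X x y (Q + 6 * (m : ℝ)) := by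
    intro x y hh
    refine ⟨(perZ m _ _).mpr hh.mem_a, (perZ m _ _).mpr hh.mem_b,
      fun l hl => hh.only l ((perZ m _ _).mp hl), ?_, ?_⟩
    · have h1 := tendsto_add_left (Q + 6 * (m : ℝ)) (-(6 * (m : ℝ)))
      have e : Q + 6 * (m : ℝ) + -(6 * (m : ℝ)) = Q := by ring
      rw [e] at h1
      filter_upwards [h1.eventually hh.left] with v hv hv'
      refine hv ((perZ m _ _).mp ?_)
      have e2 : v + -(6 * (m : ℝ)) + 6 * (m : ℝ) = v := by ring
      rw [e2]; exact hv'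
    · have h1 := tendsto_add_right (Q + 6 * (m : ℝ)) (-(6 * (m : ℝ)))
      have e : Q + 6 * (m : ℝ) + -(6 * (m : ℝ)) = Q := by ring
      rw [e] at h1
      filter_upwards [h1.eventually hh.right] with v hv hv'
      refine hv ((perZ m _ _).mp ?_)
      have e2 : v + -(6 * (m : ℝ)) + 6 * (m : ℝ) = v := by ring
      rw [e2]; exact hv'
  have hQ2 : QMark X (Q + 6 * (m : ℝ)) := hQ.imp hmark hmark
  set T := Q + 6 * (m : ℝ) with hT
  have hf0 : 0 ≤ ⌊T - V⌋ := Int.floor_nonneg.mpr (by linarith)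
  have hf6 : ⌊T - V⌋ < 6 := by
    rw [Int.floor_lt]; push_cast; linarith
  have e : ((⌊T - V⌋.toNat : ℕ) : ℝ) = (⌊T - V⌋ : ℝ) := by
    have : ((⌊T - V⌋.toNat : ℤ)) = ⌊T - V⌋ := Int.toNat_of_nonneg hf0
    exact_mod_cast congrArg (Int.cast : ℤ → ℝ) this
  have hTe : V + Int.fract (T - V) + (((⟨⌊T - V⌋.toNat, by omega⟩ : Fin 6).val : ℕ) : ℝ) = T := by
    show V + Int.fract (T - V) + ((⌊T - V⌋.toNat : ℕ) : ℝ) = T
    rw [e]
    have := Int.floor_add_fract (T - V)
    linarith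
  refine Tie.L2 R R.ac hV hVu (k := ⟨⌊T - V⌋.toNat, by omega⟩)
    (Int.fract_nonneg (T - V)) (Int.fract_lt_one (T - V)) ?_ ?_
  · rw [hTe]; exact hQ2
  · intro u a b
    obtain ⟨n, hn⟩ := hQu u a b
    refine ⟨n - m, ?_⟩
    rw [hTe, hT, hn]
    push_cast; ring

/-- **L3**: exactly one end `V` of type `e|A`, exactly two ends `Q < Q'` of type `f|C` in the window
`(V, V + 6)`: the centre is in the open triangle of the three ends. -/
theorem RawT.L3 (R : RawT X) {V Q Q' : ℝ} (hV : End X 0 2 V)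
    (hVu : ∀ u, u ∈ X 0 → u ∈ X 2 → ∃ n : ℤ, u = V + 6 * n)
    (hQ : End X 1 3 Q) (hQ' : End X 1 3 Q') (h1 : V < Q) (h2 : Q < Q') (h3 : Q' < V + 6)
    (hQu : ∀ u, u ∈ X 1 → u ∈ X 3 → ∃ n : ℤ, u = Q + 6 * n ∨ u = Q' + 6 * n) :
    Q < V + 3 ∧ V + 3 < Q' ∧ Q' < Q + 3 :=
  Tie.L3 R R.ac R.anti hV hVu hQ hQ' h1 h2 h3 hQu

end Vale.Agent.P032.Words
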