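import Vale.Agent.P032.Words.L23

/-!
# Words on a circle with exact contacts: the engine

Letters `0 = e`, `1 = f`, `2 = A`, `3 = C`; angles in units of 60 degrees.  In `RawT` two neighbouring
positions may share one letter, if each of the two positions has a second letter (an exact contact).
-/

namespace Vale.Agent.P032.Words

open Set Filter Topology

/-- Six palettes around the circle. -/
structure PalT (P : Fin 6 → Fin 4 → Prop) : Prop where
  own : ∀ k l, P k l → P (k + 1) l → ∃ m, m ≠ l ∧ P k m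
  own' : ∀ k l, P k l → P (k + 1) l → ∃ m, m ≠ l ∧ P (k + 1) m
  swap : ∀ k l m, P k l → P (k + 1) l → P k m → P (k + 1) m → l = m
  dbl : ∀ k l m, l ≠ m → P k l → P (k + 1) l → P (k + 1) m → P (k + 1 + 1) m → l.val < 2 ∧ m.val < 2

theorem cyc {p : Fin 6 → Prop} (h0 : ∃ k, p k) (h1 : ∀ k, p k → p (k + 1)) : ∀ k, p k := by
  obtain ⟨k0, hk0⟩ := h0
  have h : ∀ n : ℕ, ∀ k, p k → p ((fun x : Fin 6 => x + 1)^[n] k) := by
    intro n
    induction n with
    | zero => intro k hk; exact hk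
    | succ n ih =>
      intro k hk
      rw [Function.iterate_succ_apply]
      exact ih _ (h1 k hk)
  have key : ∀ a b : Fin 6, ∃ n : Fin 6, b = (fun x : Fin 6 => x + 1)^[n.val] a := by decide
  intro k
  obtain ⟨n, hn⟩ := key k0 k
  rw [hn]
  exact h n.val k0 hk0

theorem cyc' {p : Fin 6 → Prop} (h0 : ∃ k, p k) (h1 : ∀ k, p (k + 1) → p k) : ∀ k, p k := by
  by_contra h
  push Not at h
  obtain ⟨k0, hk0⟩ := h0
  exact cyc (p := fun k => ¬ p k) h (fun k hk hk' => hk (h1 k hk')) k0 hk0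

theorem val_lt_two {l m : Fin 4} (hl : l.val < 2) (hm : m.val < 2) (h : l ≠ m) :
    (l = 0 ∧ m = 1) ∨ (l = 1 ∧ m = 0) := by
  revert l m; decide

theorem Fin.add_one_sub (k : Fin 6) : k - 1 + 1 = k := by revert k; decide

theorem PalT.no_all {P : Fin 6 → Fin 4 → Prop} (hP : PalT P)
    (h : ∀ k, ∃ l m : Fin 4, l ≠ m ∧ l.val < 2 ∧ m.val < 2 ∧ P k l ∧ P k m) : False := by
  have h01 : ∀ k, P k 0 ∧ P k 1 := by
    intro k
    obtain ⟨l, m, hlm, hl, hm, h1, h2⟩ := h k
    rcases val_lt_two hl hm hlm with ⟨rfl, rfl⟩ | ⟨rfl, rfl⟩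
    · exact ⟨h1, h2⟩
    · exact ⟨h2, h1⟩
  have := hP.swap 0 0 1 (h01 0).1 (h01 _).1 (h01 0).2 (h01 _).2
  exact absurd this (by decide)

/-- Some position can be changed. -/
theorem PalT.exists_step {P : Fin 6 → Fin 4 → Prop} (hP : PalT P) {h h' : Hx}
    (hh : ∀ k, P k (h k)) (hh' : ∀ k, P k (h' k))
    (hp' : ∀ k, h' k ≠ h' (k + 1)) (hne : h ≠ h') :
    ∃ k, h k ≠ h' k ∧ h' k ≠ h (k + 1) ∧ h' k ≠ h (k - 1) := by
  by_contra hcon
  push Not at hcon
  have hcon' : ∀ k, h k ≠ h' k → h' k = h (k + 1) ∨ h' k = h (k - 1) := fun k hk => by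
    by_cases h1 : h' k = h (k + 1)
    · exact Or.inl h1
    · exact Or.inr (hcon k hk h1)
  obtain ⟨k0, hk0⟩ : ∃ k, h k ≠ h' k := by
    by_contra hc; push Not at hc; exact hne (funext hc)
  rcases hcon' k0 hk0 with h0 | h0
  · -- rotation to the right
    have all : ∀ k, h k ≠ h' k ∧ h' k = h (k + 1) := by
      refine cyc ⟨k0, hk0, h0⟩ ?_
      rintro k ⟨h1, h2⟩
      have h3 : h (k + 1) ≠ h' (k + 1) := fun h' => hp' k (h2.trans h')
      refine ⟨h3, ?_⟩
      rcases hcon' (k + 1) h3 with h4 | h4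
      · exact h4
      · exfalso
        rw [add_sub_cancel_right] at h4
        refine h1 (hP.swap k (h k) (h' k) (hh k) ?_ (hh' k) ?_)
        · rw [← h4]; exact hh' (k + 1)
        · rw [h2]; exact hh (k + 1)
    refine hP.no_all fun k => ?_
    have e : k - 1 + 1 = k := Fin.add_one_sub k
    obtain ⟨a1, a2⟩ := all (k - 1)
    obtain ⟨b1, b2⟩ := all k
    rw [e] at a2
    have := hP.dbl (k - 1) (h k) (h' k) b1 (a2 ▸ hh' (k - 1)) (by rw [e]; exact hh k)
      (by rw [e]; exact hh' k) (by rw [e, b2]; exact hh (k + 1))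
    exact ⟨h k, h' k, b1, this.1, this.2, hh k, hh' k⟩
  · have all : ∀ k, h k ≠ h' k ∧ h' k = h (k - 1) := by
      refine cyc' ⟨k0, hk0, h0⟩ ?_
      rintro k ⟨h1, h2⟩
      rw [add_sub_cancel_right] at h2
      have h3 : h k ≠ h' k := fun h'' => hp' k (by rw [h2, h''])
      refine ⟨h3, ?_⟩
      rcases hcon' k h3 with h4 | h4
      · exfalso
        refine h3 (hP.swap k (h k) (h' k) (hh k) ?_ (hh' k) ?_)
        · rw [← h2]; exact hh' (k + 1)
        · rw [h4]; exact hh (k + 1)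
      · exact h4
    refine hP.no_all fun k => ?_
    have e : k - 1 + 1 = k := Fin.add_one_sub k
    obtain ⟨a1, a2⟩ := all (k + 1)
    obtain ⟨b1, b2⟩ := all k
    rw [add_sub_cancel_right] at a2
    have := hP.dbl (k - 1) (h' k) (h k) b1.symm (by rw [b2]; exact hh (k - 1))
      (by rw [e]; exact hh' k) (by rw [e]; exact hh k) (by rw [e, ← a2]; exact hh' (k + 1))
    exact ⟨h k, h' k, b1, this.2, this.1, hh k, hh' k⟩

/-- Proper selections from the same palettes are joined by proper changes of one letter. -/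
theorem PalT.path {P : Fin 6 → Fin 4 → Prop} (hP : PalT P) {Leg : Hx → Prop}
    {free : Fin 4 → Fin 4 → Prop} {cmp : Hx → ℕ}
    (hstep : ∀ h k l, Leg h → Leg (Function.update h k l) → free (h k) l →
      cmp (Function.update h k l) = cmp h)
    (hrefl : ∀ x, free x x)
    (hleg : ∀ g : Hx, (∀ k, P k (g k)) → (∀ k, g k ≠ g (k + 1)) → Leg g) :
    ∀ (n : ℕ) (h h' : Hx), (Finset.univ.filter fun k => h k ≠ h' k).card ≤ n →
      (∀ k, P k (h k)) → (∀ k, P k (h' k)) → (∀ k, h k ≠ h (k + 1)) → (∀ k, h' k ≠ h' (k + 1)) →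
      (∀ k, free (h k) (h' k)) → cmp h = cmp h' := by
  intro n
  induction n with
  | zero =>
    intro h h' hn _ _ _ _ _
    have h0 : ∀ k, h k = h' k := by
      intro k
      by_contra hk
      have : k ∈ Finset.univ.filter fun k => h k ≠ h' k := by simpa using hk
      rw [Nat.le_zero, Finset.card_eq_zero] at hn
      rw [hn] at this
      exact absurd this (Finset.notMem_empty k)
    rw [funext h0]
  | succ n ih =>
    intro h h' hn hh hh' hp hp' hf
    by_cases hne : h = h'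
    · rw [hne]
    obtain ⟨k, h1, h2, h3⟩ := hP.exists_step hh hh' hp' hne
    have hPg : ∀ j, P j (Function.update h k (h' k) j) := by
      intro j
      by_cases hj : j = k
      · subst hj; rw [Function.update_self]; exact hh' j
      · rw [Function.update_of_ne hj]; exact hh j
    have hpg : ∀ j, Function.update h k (h' k) j ≠ Function.update h k (h' k) (j + 1) := by
      intro j
      have hj1 : j ≠ j + 1 := by revert j; decide
      by_cases hj : j = k
      · subst hj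
        rw [Function.update_self, Function.update_of_ne hj1.symm]
        exact h2
      · rw [Function.update_of_ne hj]
        by_cases hj2 : j + 1 = k
        · have e : k - 1 = j := by rw [← hj2, add_sub_cancel_right]
          rw [hj2, Function.update_self]
          rw [e] at h3
          exact h3.symm
        · rw [Function.update_of_ne hj2]; exact hp j
    have e1 := hstep h k (h' k) (hleg h hh hp) (hleg _ hPg hpg) (hf k)
    rw [← e1]
    refine ih _ h' ?_ hPg hh' hpg hp' ?_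
    · have hsub : (Finset.univ.filter fun j => Function.update h k (h' k) j ≠ h' j) ⊂
          (Finset.univ.filter fun j => h j ≠ h' j) := by
        rw [Finset.ssubset_iff_of_subset]
        · refine ⟨k, by simpa using h1, ?_⟩
          simp
        · intro j hj
          simp only [Finset.mem_filter, Finset.mem_univ, true_and] at hj ⊢
          by_cases hjk : j = k
          · subst hjk; rw [Function.update_self] at hj; exact absurd rfl hj
          · rw [Function.update_of_ne hjk] at hj; exact hj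
      have := Finset.card_lt_card hsub
      omega
    · intro j
      by_cases hj : j = k
      · subst hj; rw [Function.update_self]; exact hrefl _
      · rw [Function.update_of_ne hj]; exact hf j

/-- The word of a four coloured centre, exact contacts allowed. -/
structure RawT (X : Fin 4 → Set ℝ) : Prop where
  closed : ∀ l, IsClosed (X l)
  cover : ∀ u, ∃ l, u ∈ X l
  per : ∀ l u, u + 6 ∈ X l ↔ u ∈ X l
  anti : ∀ u, u ∈ X 2 → u + 3 ∉ X 3
  ac : ∀ u, u ∈ X 2 → u ∉ X 3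
  two : ∀ u l m n, u ∈ X l → u ∈ X m → u ∈ X n → l = m ∨ m = n ∨ n = l
  own : ∀ u l, u ∈ X l → u + 1 ∈ X l → ∃ m, m ≠ l ∧ u ∈ X m
  own' : ∀ u l, u ∈ X l → u + 1 ∈ X l → ∃ m, m ≠ l ∧ u + 1 ∈ X m
  swap : ∀ u l m, u ∈ X l → u + 1 ∈ X l → u ∈ X m → u + 1 ∈ X m → l = m
  dbl : ∀ u l m, l ≠ m → u ∈ X l → u + 1 ∈ X l → u + 1 ∈ X m → u + 2 ∈ X m →
    l.val < 2 ∧ m.val < 2
  three : ∀ u l m, l ≠ m → u ∈ X l → u + 1 ∈ X l → u + 1 ∈ X m → u + 2 ∈ X m →
    ¬ (u ∈ X 2 ∧ u + 2 ∈ X 3) ∧ ¬ (u ∈ X 3 ∧ u + 2 ∈ X 2)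

/-- A letter at `u` which is not shared with a neighbour. -/
def Good (X : Fin 4 → Set ℝ) (u : ℝ) (l : Fin 4) : Prop := u ∈ X l ∧ u + 1 ∉ X l ∧ u - 1 ∉ X l

open Classical in
/-- A good letter, if there is one. -/
noncomputable def lamF (G : Fin 4 → Prop) (C : Prop) : Fin 4 :=
  if h : ∃ l, G l then h.choose else if C then 1 else 0

/-- The canonical letter at `u`. -/
noncomputable def lamT (X : Fin 4 → Set ℝ) (u : ℝ) : Fin 4 :=
  lamF (Good X u) ((u + 1 ∈ X 0 ∧ u + 1 ∈ X 2) ∨ (u - 1 ∈ X 0 ∧ u - 1 ∈ X 2))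

/-- The canonical hexagon at `u`. -/
noncomputable def stT (X : Fin 4 → Set ℝ) (u : ℝ) : Hx := fun k => lamT X (u + (k.val : ℝ))

section
variable {X : Fin 4 → Set ℝ}

theorem lamT_good {u : ℝ} (h : ∃ l, Good X u l) : Good X u (lamT X u) := by
  unfold lamT lamF; rw [dif_pos h]; exact h.choose_spec

theorem lamT_one {u : ℝ} (h : ¬ ∃ l, Good X u l)
    (hc : (u + 1 ∈ X 0 ∧ u + 1 ∈ X 2) ∨ (u - 1 ∈ X 0 ∧ u - 1 ∈ X 2)) : lamT X u = 1 := by
  unfold lamT lamF; rw [dif_neg h, if_pos hc]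

theorem lamT_zero {u : ℝ} (h : ¬ ∃ l, Good X u l)
    (hc : ¬ ((u + 1 ∈ X 0 ∧ u + 1 ∈ X 2) ∨ (u - 1 ∈ X 0 ∧ u - 1 ∈ X 2))) : lamT X u = 0 := by
  unfold lamT lamF; rw [dif_neg h, if_neg hc]

/-- no good letter: a double contact -/
theorem RawT.dbl_of (w : RawT X) {u : ℝ} (h : ¬ ∃ l, Good X u l) :
    (u ∈ X 0 ∧ u ∈ X 1) ∧ ((u - 1 ∈ X 0 ∧ u + 1 ∈ X 1) ∨ (u - 1 ∈ X 1 ∧ u + 1 ∈ X 0)) := by
  have hs : ∀ l, u ∈ X l → u - 1 ∈ X l ∨ u + 1 ∈ X l := by
    intro l hl
    by_contra hc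
    push Not at hc
    exact h ⟨l, hl, hc.2, hc.1⟩
  have e : u - 1 + 1 = u := by ring
  have e2 : u - 1 + 2 = u + 1 := by ring
  obtain ⟨l, hl⟩ := w.cover u
  obtain ⟨m, hm, hmu⟩ : ∃ m, m ≠ l ∧ u ∈ X m := by
    rcases hs l hl with h1 | h1
    · have := w.own' (u - 1) l h1 (by rw [e]; exact hl)
      rw [e] at this; exact this
    · exact w.own u l hl h1
  have key : ∀ l m : Fin 4, l ≠ m → u ∈ X l → u ∈ X m → u - 1 ∈ X l → u + 1 ∈ X m →
      (u ∈ X 0 ∧ u ∈ X 1) ∧ ((u - 1 ∈ X 0 ∧ u + 1 ∈ X 1) ∨ (u - 1 ∈ X 1 ∧ u + 1 ∈ X 0)) := by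
    intro l m hlm h1 h2 h3 h4
    have d := w.dbl (u - 1) l m hlm h3 (by rw [e]; exact h1) (by rw [e]; exact h2)
      (by rw [e2]; exact h4)
    rcases val_lt_two d.1 d.2 hlm with ⟨rfl, rfl⟩ | ⟨rfl, rfl⟩
    · exact ⟨⟨h1, h2⟩, Or.inl ⟨h3, h4⟩⟩
    · exact ⟨⟨h2, h1⟩, Or.inr ⟨h3, h4⟩⟩
  rcases hs l hl with h1 | h1 <;> rcases hs m hmu with h2 | h2
  · exact absurd (w.swap (u - 1) m l h2 (by rw [e]; exact hmu) h1 (by rw [e]; exact hl)) hm
  · exact key l m hm.symm hl hmu h1 h2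
  · exact key m l hm hmu hl h2 h1
  · exact absurd (w.swap u m l hmu h2 hl h1) hm

theorem RawT.lam_mem (w : RawT X) (u : ℝ) : u ∈ X (lamT X u) := by
  by_cases h : ∃ l, Good X u l
  · exact (lamT_good h).1
  · have := w.dbl_of h
    unfold lamT lamF
    rw [dif_neg h]
    split_ifs
    · exact this.1.2
    · exact this.1.1

theorem RawT.lam_ne (w : RawT X) (u : ℝ) : lamT X u ≠ lamT X (u + 1) := by
  intro h
  by_cases h1 : ∃ l, Good X u l
  · exact (lamT_good h1).2.1 (h ▸ w.lam_mem (u + 1))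
  by_cases h2 : ∃ l, Good X (u + 1) l
  · have := (lamT_good h2).2.2
    have e : u + 1 - 1 = u := by ring
    rw [e] at this
    exact this (h ▸ w.lam_mem u)
  obtain ⟨⟨a0, a1⟩, -⟩ := w.dbl_of h1
  obtain ⟨⟨b0, b1⟩, -⟩ := w.dbl_of h2
  exact absurd (w.swap u 0 1 a0 b0 a1 b1) (by decide)

theorem RawT.lam_per (w : RawT X) (u : ℝ) : lamT X (u + 6) = lamT X u := by
  have h1 : ∀ l, u + 6 + 1 ∈ X l ↔ u + 1 ∈ X l := by
    intro l
    have : u + 6 + 1 = u + 1 + 6 := by ring
    rw [this, w.per]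
  have h2 : ∀ l, u + 6 - 1 ∈ X l ↔ u - 1 ∈ X l := by
    intro l
    have : u + 6 - 1 = u - 1 + 6 := by ring
    rw [this, w.per]
  have hg : Good X (u + 6) = Good X u := by
    funext l
    unfold Good
    rw [w.per, h1, h2]
  unfold lamT
  rw [hg, h1, h1, h2, h2]

/-- the palette of letters at the position `k` of `u` -/
def palT (X : Fin 4 → Set ℝ) (u : ℝ) (k : Fin 6) (l : Fin 4) : Prop := u + (k.val : ℝ) ∈ X l

theorem RawT.mem_add (w : RawT X) (u : ℝ) (k : Fin 6) (l : Fin 4) :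
    u + ((k + 1).val : ℝ) ∈ X l ↔ u + (k.val : ℝ) + 1 ∈ X l := by
  by_cases hk : k = 5
  · subst hk
    have h1 : ((5 : Fin 6) + 1).val = 0 := rfl
    have h2 : (5 : Fin 6).val = 5 := rfl
    rw [h1, h2]
    have : u + ((5 : ℕ) : ℝ) + 1 = (u + ((0 : ℕ) : ℝ)) + 6 := by push_cast; ring
    rw [this, w.per]
  · have h1 : (k + 1).val = k.val + 1 := by
      have : k.val ≠ 5 := fun h => hk (Fin.ext h)
      have h6 := k.isLt
      rw [Fin.val_add_one_of_lt]
      rw [Fin.lt_def]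
      show k.val < 5
      omega
    rw [h1]
    have : u + (k.val : ℝ) + 1 = u + ((k.val + 1 : ℕ) : ℝ) := by push_cast; ring
    rw [this]

theorem RawT.lam_add (w : RawT X) (u : ℝ) (k : Fin 6) :
    lamT X (u + ((k + 1).val : ℝ)) = lamT X (u + (k.val : ℝ) + 1) := by
  by_cases hk : k = 5
  · subst hk
    have h1 : ((5 : Fin 6) + 1).val = 0 := rfl
    have h2 : (5 : Fin 6).val = 5 := rfl
    rw [h1, h2]
    have : u + ((5 : ℕ) : ℝ) + 1 = (u + ((0 : ℕ) : ℝ)) + 6 := by push_cast; ring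
    rw [this, w.lam_per]
  · have h1 : (k + 1).val = k.val + 1 := by
      have : k.val ≠ 5 := fun h => hk (Fin.ext h)
      have h6 := k.isLt
      rw [Fin.val_add_one_of_lt]
      rw [Fin.lt_def]
      show k.val < 5
      omega
    rw [h1]
    have : u + (k.val : ℝ) + 1 = u + ((k.val + 1 : ℕ) : ℝ) := by push_cast; ring
    rw [this]

theorem RawT.mem_add3 (w : RawT X) (u : ℝ) (k : Fin 6) (l : Fin 4) :
    u + ((k + 3).val : ℝ) ∈ X l ↔ u + (k.val : ℝ) + 3 ∈ X l := by
  have e : k + 3 = k + 1 + 1 + 1 := by revert k; decide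
  rw [e, w.mem_add]
  have h1 := w.mem_add (u + 1) (k + 1) l
  have h2 := w.mem_add (u + 2) k l
  have e1 : u + ((k + 1 + 1).val : ℝ) + 1 = u + 1 + ((k + 1 + 1).val : ℝ) := by ring
  have e2 : u + 1 + ((k + 1).val : ℝ) + 1 = u + 2 + ((k + 1).val : ℝ) := by ring
  have e3 : u + 2 + (k.val : ℝ) + 1 = u + (k.val : ℝ) + 3 := by ring
  rw [e1, h1, e2, h2, e3]

theorem RawT.palT (w : RawT X) (u : ℝ) : PalT (palT X u) := by
  have h2 : ∀ k l, u + ((k + 1 + 1 : Fin 6).val : ℝ) ∈ X l ↔ u + (k.val : ℝ) + 2 ∈ X l := by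
    intro k l
    rw [w.mem_add]
    have e : u + ((k + 1).val : ℝ) + 1 = u + 1 + ((k + 1).val : ℝ) := by ring
    rw [e, w.mem_add]
    have e : u + 1 + (k.val : ℝ) + 1 = u + (k.val : ℝ) + 2 := by ring
    rw [e]
  refine ⟨?_, ?_, ?_, ?_⟩
  · intro k l a b
    exact w.own _ l a ((w.mem_add u k l).mp b)
  · intro k l a b
    obtain ⟨m, hm, h⟩ := w.own' _ l a ((w.mem_add u k l).mp b)
    exact ⟨m, hm, (w.mem_add u k m).mpr h⟩
  · intro k l m a b c d
    exact w.swap _ l m a ((w.mem_add u k l).mp b) c ((w.mem_add u k m).mp d)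
  · intro k l m hlm a b c d
    exact w.dbl _ l m hlm a ((w.mem_add u k l).mp b) ((w.mem_add u k m).mp c) ((h2 k m).mp d)

theorem RawT.leg (w : RawT X) (u : ℝ) (g : Hx) (h1 : ∀ k, Words.palT X u k (g k))
    (h2 : ∀ k, g k ≠ g (k + 1)) : Leg4 g := by
  refine ⟨h2, ?_⟩
  rintro k ⟨a, b⟩
  have h3 := h1 k
  have h4 := h1 (k + 3)
  rw [a] at h3
  rw [b] at h4
  exact w.anti _ h3 ((w.mem_add3 u k 3).mp h4)

theorem RawT.st_mem (w : RawT X) (u : ℝ) (k : Fin 6) : u + (k.val : ℝ) ∈ X (stT X u k) :=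
  w.lam_mem _

theorem RawT.st_ne (w : RawT X) (u : ℝ) (k : Fin 6) : stT X u k ≠ stT X u (k + 1) := by
  unfold stT
  rw [w.lam_add]
  exact w.lam_ne _

theorem RawT.leg_st (w : RawT X) (u : ℝ) : Leg4 (stT X u) := w.leg u _ (w.st_mem u) (w.st_ne u)

theorem RawT.st_add_one (w : RawT X) (u : ℝ) : stT X (u + 1) = rot (stT X u) := by
  funext k
  show lamT X (u + 1 + (k.val : ℝ)) = lamT X (u + ((k + 1).val : ℝ))
  rw [w.lam_add]
  congr 1
  ring

/-- Near `u` only letters available at `u` occur. -/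
theorem RawT.near (w : RawT X) (u : ℝ) :
    ∀ᶠ v in 𝓝 u, ∀ k : Fin 6, ∀ l, v + (k.val : ℝ) ∈ X l → u + (k.val : ℝ) ∈ X l := by
  rw [eventually_all]
  intro k
  rw [eventually_all]
  intro l
  by_cases h : u + (k.val : ℝ) ∈ X l
  · exact Eventually.of_forall fun v _ => h
  · have hc : Continuous fun v : ℝ => v + (k.val : ℝ) := by fun_prop
    have := (hc.tendsto u).eventually ((w.closed l).isOpen_compl.mem_nhds h)
    filter_upwards [this] with v hv hv'
    exact absurd hv' hv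

variable {free : Fin 4 → Fin 4 → Prop} {cmp : Hx → ℕ}

/-- Two proper selections at `u`. -/
theorem RawT.cmp_eq (w : RawT X)
    (hstep : ∀ h k l, Leg4 h → Leg4 (Function.update h k l) → free (h k) l →
      cmp (Function.update h k l) = cmp h)
    (hrefl : ∀ x, free x x) (u : ℝ) {h h' : Hx} (hh : ∀ k, u + (k.val : ℝ) ∈ X (h k))
    (hh' : ∀ k, u + (k.val : ℝ) ∈ X (h' k)) (hp : ∀ k, h k ≠ h (k + 1))
    (hp' : ∀ k, h' k ≠ h' (k + 1)) (hf : ∀ k, free (h k) (h' k)) : cmp h = cmp h' :=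
  (w.palT u).path hstep hrefl (w.leg u) _ h h' le_rfl hh hh' hp hp' hf

/-- Local constancy at a point without non-free pairs. -/
theorem RawT.ev_nhds (w : RawT X)
    (hstep : ∀ h k l, Leg4 h → Leg4 (Function.update h k l) → free (h k) l →
      cmp (Function.update h k l) = cmp h)
    (hrefl : ∀ x, free x x)
    {u : ℝ} (hfree : ∀ k : Fin 6, ∀ a b, u + (k.val : ℝ) ∈ X a → u + (k.val : ℝ) ∈ X b → free a b) :
    ∀ᶠ v in 𝓝 u, cmp (stT X v) = cmp (stT X u) := by
  filter_upwards [w.near u] with v hv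
  exact w.cmp_eq hstep hrefl u (fun k => hv k _ (w.st_mem v k)) (w.st_mem u) (w.st_ne v) (w.st_ne u)
    (fun k => hfree k _ _ (hv k _ (w.st_mem v k)) (w.st_mem u k))

/-- Constancy on a connected set without non-free pairs. -/
theorem RawT.const_Ioo (w : RawT X)
    (hstep : ∀ h k l, Leg4 h → Leg4 (Function.update h k l) → free (h k) l →
      cmp (Function.update h k l) = cmp h)
    (hrefl : ∀ x, free x x)
    {s : Set ℝ} (hs : IsPreconnected s)
    (hfree : ∀ u ∈ s, ∀ k : Fin 6, ∀ a b, u + (k.val : ℝ) ∈ X a → u + (k.val : ℝ) ∈ X b → free a b)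
    {u v : ℝ} (hu : u ∈ s) (hv : v ∈ s) : cmp (stT X u) = cmp (stT X v) := by
  have hc : ContinuousOn (fun u => cmp (stT X u)) s := by
    intro x hx
    have h1 := w.ev_nhds hstep hrefl (hfree x hx)
    have : Tendsto (fun u => cmp (stT X u)) (𝓝 x) (pure (cmp (stT X x))) := by
      rw [tendsto_pure]; exact h1
    exact (this.mono_left nhdsWithin_le_nhds).mono_right (pure_le_nhds _)
  exact hs.constant hc hu hv

/-- The value of `cmp` at the two ends of an open interval without non-free pairs. -/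
theorem RawT.seg (w : RawT X)
    (hstep : ∀ h k l, Leg4 h → Leg4 (Function.update h k l) → free (h k) l →
      cmp (Function.update h k l) = cmp h)
    (hrefl : ∀ x, free x x)
    {a b : ℝ} (hab : a < b)
    (hfree : ∀ u ∈ Ioo a b, ∀ k : Fin 6, ∀ x y, u + (k.val : ℝ) ∈ X x → u + (k.val : ℝ) ∈ X y →
      free x y)
    {p q : ℕ} (hp : ∀ᶠ v in 𝓝[>] a, cmp (stT X v) = p) (hq : ∀ᶠ v in 𝓝[<] b, cmp (stT X v) = q) :
    p = q := by
  have h1 : ∀ᶠ v in 𝓝[>] a, v ∈ Ioo a b := Ioo_mem_nhdsGT hab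
  have h2 : ∀ᶠ v in 𝓝[<] b, v ∈ Ioo a b := Ioo_mem_nhdsLT hab
  obtain ⟨x, hx1, hx2⟩ := (hp.and h1).exists
  obtain ⟨y, hy1, hy2⟩ := (hq.and h2).exists
  rw [← hx1, ← hy1]
  exact w.const_Ioo hstep hrefl isPreconnected_Ioo hfree hx2 hy2

/-- The type of a mark: `{e, A}` or `{f, C}`. -/
def Ty (a b : Fin 4) : Prop :=
  (a = 0 ∧ b = 2) ∨ (a = 2 ∧ b = 0) ∨ (a = 1 ∧ b = 3) ∨ (a = 3 ∧ b = 1)

/-- The letters of a mark at `v` differ from every letter which is allowed at `v + 1`. -/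
theorem RawT.mark_ne (w : RawT X) {v : ℝ} {a b : Fin 4} (ht : Ty a b) (ha : v ∈ X a) (hb : v ∈ X b)
    {x : Fin 4} (hx : x = a ∨ x = b) : x ≠ lamT X (v + 1) ∧ x ≠ lamT X (v - 1) := by
  have hxv : v ∈ X x := by rcases hx with rfl | rfl; exacts [ha, hb]
  have h02 : x = 0 → v ∈ X 2 := by
    rintro rfl
    rcases ht with ⟨rfl, rfl⟩ | ⟨rfl, rfl⟩ | ⟨rfl, rfl⟩ | ⟨rfl, rfl⟩
    · exact hb
    · exact ha
    · exact absurd hx (by decide)
    · exact absurd hx (by decide)
  have h13 : x = 1 → v ∈ X 3 := by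
    rintro rfl
    rcases ht with ⟨rfl, rfl⟩ | ⟨rfl, rfl⟩ | ⟨rfl, rfl⟩ | ⟨rfl, rfl⟩
    · exact absurd hx (by decide)
    · exact absurd hx (by decide)
    · exact hb
    · exact ha
  constructor
  · intro h
    by_cases hg : ∃ l, Good X (v + 1) l
    · have := (lamT_good hg).2.2
      have e : v + 1 - 1 = v := by ring
      rw [e] at this
      exact this (h ▸ hxv)
    · have hd := w.dbl_of hg
      have e : v + 1 - 1 = v := by ring
      have e2 : v + 1 + 1 = v + 2 := by ring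
      rw [e, e2] at hd
      have hl1 := lamT_one hg
      have hl0 := lamT_zero hg
      rw [e, e2] at hl1 hl0
      obtain ⟨⟨d0, d1⟩, d2⟩ := hd
      by_cases hc : (v + 2 ∈ X 0 ∧ v + 2 ∈ X 2) ∨ (v ∈ X 0 ∧ v ∈ X 2)
      · -- the letter is `1`
        rw [hl1 hc] at h
        have v3 := h13 h
        rw [h] at hxv
        rcases d2 with ⟨c0, c1⟩ | ⟨c0, c1⟩
        · exact absurd (w.swap v 0 1 c0 d0 hxv d1) (by decide)
        · rcases hc with ⟨hc0, hc2⟩ | ⟨hc0, hc2⟩
          · exact (w.three v 1 0 (by decide) hxv d1 d0 c1).2 ⟨v3, hc2⟩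
          · exact absurd (w.swap v 0 1 hc0 d0 hxv d1) (by decide)
      · rw [hl0 hc] at h
        have v2 := h02 h
        rw [h] at hxv
        exact hc (Or.inr ⟨hxv, v2⟩)
  · intro h
    by_cases hg : ∃ l, Good X (v - 1) l
    · have := (lamT_good hg).2.1
      have e : v - 1 + 1 = v := by ring
      rw [e] at this
      exact this (h ▸ hxv)
    · have hd := w.dbl_of hg
      have e : v - 1 + 1 = v := by ring
      have e2 : v - 1 - 1 = v - 2 := by ring
      have e3 : v - 2 + 1 = v - 1 := by ring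
      have e4 : v - 2 + 2 = v := by ring
      rw [e, e2] at hd
      have hl1 := lamT_one hg
      have hl0 := lamT_zero hg
      rw [e, e2] at hl1 hl0
      obtain ⟨⟨d0, d1⟩, d2⟩ := hd
      have nosw : ∀ {l m : Fin 4}, l ≠ m → v - 1 ∈ X l → v ∈ X l → v - 1 ∈ X m → v ∈ X m →
          False := by
        intro l m hlm a1 a2 a3 a4
        exact hlm (w.swap (v - 1) l m a1 (by rw [e]; exact a2) a3 (by rw [e]; exact a4))
      by_cases hc : (v ∈ X 0 ∧ v ∈ X 2) ∨ (v - 2 ∈ X 0 ∧ v - 2 ∈ X 2)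
      · rw [hl1 hc] at h
        have v3 := h13 h
        rw [h] at hxv
        rcases d2 with ⟨c0, c1⟩ | ⟨c0, c1⟩
        · rcases hc with ⟨hc0, hc2⟩ | ⟨hc0, hc2⟩
          · exact nosw (by decide) d0 hc0 d1 hxv
          · exact (w.three (v - 2) 0 1 (by decide) c0 (by rw [e3]; exact d0) (by rw [e3]; exact d1)
              (by rw [e4]; exact c1)).1 ⟨hc2, by rw [e4]; exact v3⟩
        · exact nosw (by decide) d0 c1 d1 hxv
      · rw [hl0 hc] at h
        have v2 := h02 h
        rw [h] at hxv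
        exact hc (Or.inl ⟨hxv, v2⟩)

/-- Two neighbouring marks have no common letter. -/
theorem RawT.mark_mark (w : RawT X) {v : ℝ} {a b a' b' : Fin 4} (ht : Ty a b) (ht' : Ty a' b')
    (ha : v ∈ X a) (hb : v ∈ X b) (ha' : v + 1 ∈ X a') (hb' : v + 1 ∈ X b')
    {x x' : Fin 4} (hx : x = a ∨ x = b) (hx' : x' = a' ∨ x' = b') : x ≠ x' := by
  rcases ht with ⟨rfl, rfl⟩ | ⟨rfl, rfl⟩ | ⟨rfl, rfl⟩ | ⟨rfl, rfl⟩ <;>
    rcases ht' with ⟨rfl, rfl⟩ | ⟨rfl, rfl⟩ | ⟨rfl, rfl⟩ | ⟨rfl, rfl⟩ <;>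
    first
      | (exact absurd (w.swap v _ _ ha ha' hb hb') (by decide))
      | (exact absurd (w.swap v _ _ ha hb' hb ha') (by decide))
      | (rcases hx with rfl | rfl <;> rcases hx' with rfl | rfl <;> decide)

/-- The values of `cmp` on the two sides of a point with marks. -/
theorem RawT.jump (w : RawT X)
    (hstep : ∀ h k l, Leg4 h → Leg4 (Function.update h k l) → free (h k) l →
      cmp (Function.update h k l) = cmp h)
    (hrefl : ∀ x, free x x)
    {u : ℝ} (M : Finset (Fin 6)) (a b : Fin 6 → Fin 4)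
    (hM : ∀ k ∈ M, Mark X (a k) (b k) (u + (k.val : ℝ))) (hT : ∀ k ∈ M, Ty (a k) (b k))
    (hN : ∀ k ∉ M, ∀ x y, u + (k.val : ℝ) ∈ X x → u + (k.val : ℝ) ∈ X y → free x y) :
    ∃ h : Finset (Fin 6) → Hx, (∀ S, Leg4 (h S)) ∧
      (∀ S, ∀ k ∈ M, k ∉ S → h S k = a k ∧ h (insert k S) = Function.update (h S) k (b k)) ∧
      (∀ᶠ v in 𝓝[<] u, cmp (stT X v) = cmp (h ∅)) ∧
      (∀ᶠ v in 𝓝[>] u, cmp (stT X v) = cmp (h M)) ∧
      (∀ᶠ v in 𝓝[<] (u + 1), cmp (stT X v) = cmp (rot (h ∅))) := by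
  classical
  set h : Finset (Fin 6) → Hx := fun S k =>
    if k ∈ M then (if k ∈ S then b k else a k) else stT X u k with hh
  have hsel : ∀ S k, k ∈ M → h S k = a k ∨ h S k = b k := by
    intro S k hk
    simp only [hh, if_pos hk]
    split_ifs
    · exact Or.inr rfl
    · exact Or.inl rfl
  have hav : ∀ S k, u + (k.val : ℝ) ∈ X (h S k) := by
    intro S k
    simp only [hh]
    split_ifs with h1 h2
    · exact (hM k h1).mem_b
    · exact (hM k h1).mem_a
    · exact w.st_mem u k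
  have hpr : ∀ S k, h S k ≠ h S (k + 1) := by
    intro S k
    by_cases h1 : k ∈ M
    · have m1 := hM k h1
      by_cases h2 : k + 1 ∈ M
      · have m2 := hM (k + 1) h2
        exact w.mark_mark (hT k h1) (hT _ h2) m1.mem_a m1.mem_b
          ((w.mem_add u k _).mp m2.mem_a) ((w.mem_add u k _).mp m2.mem_b) (hsel S k h1)
          (hsel S _ h2)
      · have e : h S (k + 1) = lamT X (u + (k.val : ℝ) + 1) := by
          simp only [hh, if_neg h2]
          unfold stT
          exact w.lam_add u k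
        rw [e]
        exact (w.mark_ne (hT k h1) m1.mem_a m1.mem_b (hsel S k h1)).1
    · have e0 : h S k = lamT X (u + (k.val : ℝ)) := by
        simp only [hh, if_neg h1]
        rfl
      by_cases h2 : k + 1 ∈ M
      · have m2 := hM (k + 1) h2
        have := (w.mark_ne (v := u + (k.val : ℝ) + 1) (hT _ h2) ((w.mem_add u k _).mp m2.mem_a)
          ((w.mem_add u k _).mp m2.mem_b) (hsel S _ h2)).2
        have e : u + (k.val : ℝ) + 1 - 1 = u + (k.val : ℝ) := by ring
        rw [e] at this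
        rw [e0]
        exact this.symm
      · have e : h S (k + 1) = stT X u (k + 1) := by simp only [hh, if_neg h2]
        have e' : h S k = stT X u k := by simp only [hh, if_neg h1]
        rw [e, e']
        exact w.st_ne u k
  have hleft : ∀ᶠ v in 𝓝[<] u, ∀ k, u + (k.val : ℝ) ∈ X (stT X v k) ∧ free (stT X v k) (h ∅ k) := by
    rw [eventually_all]
    intro k
    have h0 := (w.near u).filter_mono (nhdsWithin_le_nhds (s := Iio u))
    by_cases h1 : k ∈ M
    · have h2 := (tendsto_add_left u (k.val : ℝ)).eventually (hM k h1).left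
      filter_upwards [h0, h2] with v hv hv2
      have hm := hv k _ (w.st_mem v k)
      refine ⟨hm, ?_⟩
      have e : h ∅ k = a k := by simp only [hh, if_pos h1]; rfl
      rw [e]
      rcases (hM k h1).only _ hm with h3 | h3
      · rw [h3]; exact hrefl _
      · exact absurd (h3 ▸ w.st_mem v k) hv2
    · filter_upwards [h0] with v hv
      have hm := hv k _ (w.st_mem v k)
      exact ⟨hm, hN k h1 _ _ hm (hav ∅ k)⟩
  have hright : ∀ᶠ v in 𝓝[>] u, ∀ k, u + (k.val : ℝ) ∈ X (stT X v k) ∧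
      free (stT X v k) (h M k) := by
    rw [eventually_all]
    intro k
    have h0 := (w.near u).filter_mono (nhdsWithin_le_nhds (s := Ioi u))
    by_cases h1 : k ∈ M
    · have h2 := (tendsto_add_right u (k.val : ℝ)).eventually (hM k h1).right
      filter_upwards [h0, h2] with v hv hv2
      have hm := hv k _ (w.st_mem v k)
      refine ⟨hm, ?_⟩
      have e : h M k = b k := by simp only [hh, if_pos h1]
      rw [e]
      rcases (hM k h1).only _ hm with h3 | h3
      · exact absurd (h3 ▸ w.st_mem v k) hv2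
      · rw [h3]; exact hrefl _
    · filter_upwards [h0] with v hv
      have hm := hv k _ (w.st_mem v k)
      exact ⟨hm, hN k h1 _ _ hm (hav M k)⟩
  refine ⟨h, fun S => w.leg u _ (hav S) (hpr S), ?_, ?_, ?_, ?_⟩
  · intro S k hk hkS
    refine ⟨by simp only [hh]; rw [if_pos hk, if_neg hkS], ?_⟩
    funext j
    by_cases hj : j = k
    · subst hj
      rw [Function.update_self]
      simp only [hh]
      rw [if_pos hk, if_pos (Finset.mem_insert_self j S)]
    · rw [Function.update_of_ne hj]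
      simp only [hh]
      by_cases hjM : j ∈ M
      · rw [if_pos hjM, if_pos hjM]
        by_cases hjS : j ∈ S
        · rw [if_pos hjS, if_pos (Finset.mem_insert_of_mem hjS)]
        · rw [if_neg hjS, if_neg]
          rw [Finset.mem_insert]
          exact not_or.mpr ⟨hj, hjS⟩
      · rw [if_neg hjM, if_neg hjM]
  · filter_upwards [hleft] with v hv
    exact w.cmp_eq hstep hrefl u (fun k => (hv k).1) (hav ∅) (w.st_ne v) (hpr ∅)
      (fun k => (hv k).2)
  · filter_upwards [hright] with v hv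
    exact w.cmp_eq hstep hrefl u (fun k => (hv k).1) (hav M) (w.st_ne v) (hpr M)
      (fun k => (hv k).2)
  · have h1 : ∀ᶠ v in 𝓝[<] (u + 1), ∀ k, u + (k.val : ℝ) ∈ X (stT X (v - 1) k) ∧
        free (stT X (v - 1) k) (h ∅ k) := by
      have := tendsto_add_left (u + 1) (-1)
      have e : u + 1 + -1 = u := by ring
      rw [e] at this
      have h2 := this.eventually hleft
      filter_upwards [h2] with v hv
      exact hv
    filter_upwards [h1] with v hv
    have e : stT X v = rot (stT X (v - 1)) := by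
      rw [← w.st_add_one]; congr 1; ring
    rw [e]
    have tr : ∀ g : Hx, (∀ k, u + (k.val : ℝ) ∈ X (g k)) → ∀ k : Fin 6,
        u + 1 + (k.val : ℝ) ∈ X (rot g k) := by
      intro g hg k
      have := hg (k + 1)
      rw [w.mem_add] at this
      have e : u + 1 + (k.val : ℝ) = u + (k.val : ℝ) + 1 := by ring
      rw [e]
      exact this
    refine w.cmp_eq hstep hrefl (u + 1) (tr _ fun k => (hv k).1) (tr _ (hav ∅)) ?_ ?_ ?_
    · intro k; exact w.st_ne (v - 1) (k + 1)
    · intro k; exact hpr ∅ (k + 1)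
    · intro k; exact (hv (k + 1)).2

end

end Vale.Agent.P032.Words
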