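import Vale.Agent.P032.Words.Sym
import Vale.Agent.P032.Words.H349.Tie

/-!
# Words on a circle with exact contacts: the facts L1, L2, L3

Letters `0 = e`, `1 = f`, `2 = A`, `3 = C`; angles in units of 60 degrees.
-/

namespace Vale.Agent.P032.Words.Tie

open Set Filter Topology

/-- **L1**: if `e` has no common points with `A` and with `C` there is no word. -/
theorem L1 {X : Fin 4 → Set ℝ} (w : RawT X) (h02 : ∀ u, u ∈ X 0 → u ∉ X 2)
    (h03 : ∀ u, u ∈ X 0 → u ∉ X 3) (h23 : ∀ u, u ∈ X 2 → u ∉ X 3) : False := by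
  have hstep : ∀ (h : Fin 6 → Fin 4) k l, Leg4 h → Leg4 (Function.update h k l) →
      (fun x y : Fin 4 => fr1 x.val y.val = true) (h k) l →
      (fun g => cN T1 (code g)) (Function.update h k l) = (fun g => cN T1 (code g)) h :=
    fun h k l h1 h2 h3 => step_of_chk chkFree1 h k l h1 h2 h3
  have hrefl : ∀ x : Fin 4, (fun x y : Fin 4 => fr1 x.val y.val = true) x x := by
    intro x; simp [fr1]
  have hfree : ∀ u ∈ (univ : Set ℝ), ∀ k : Fin 6, ∀ a b : Fin 4, u + (k.val : ℝ) ∈ X a →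
      u + (k.val : ℝ) ∈ X b → fr1 a.val b.val = true := by
    intro u _ k a b ha hb
    generalize u + (k.val : ℝ) = v at ha hb
    fin_cases a <;> fin_cases b <;> first
      | rfl
      | exact absurd hb (h02 _ ha)
      | exact absurd hb (h03 _ ha)
      | exact absurd hb (h23 _ ha)
      | exact absurd ha (h02 _ hb)
      | exact absurd ha (h03 _ hb)
      | exact absurd ha (h23 _ hb)
  have key := w.const_Ioo (cmp := fun g => cN T1 (code g)) hstep hrefl isPreconnected_univ hfree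
    (mem_univ (0 : ℝ)) (mem_univ (0 + 1))
  rw [w.st_add_one] at key
  exact rot_of_chk chkRot1 (w.leg_st 0) key.symm

/-- Passing a point with marks of type `f|C` at the positions of `L`. -/
theorem jumpQ {X : Fin 4 → Set ℝ} (w : RawT X) {u : ℝ} {L : List (Fin 6)} (hL : L.Nodup)
    (hM : ∀ k ∈ L, QMark X (u + (k.val : ℝ)))
    (hN : ∀ k ∉ L, ∀ x y, u + (k.val : ℝ) ∈ X x → u + (k.val : ℝ) ∈ X y → Fr x y)
    {p : ℕ} (hp : ∀ᶠ v in 𝓝[<] u, cp (stT X v) = p) :
    ∃ q, (∀ᶠ v in 𝓝[>] u, cp (stT X v) = q) ∧ Reach L p q := by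
  classical
  have hc : ∀ k : Fin 6, ∃ ab : Fin 4 × Fin 4, k ∈ L → Mark X ab.1 ab.2 (u + (k.val : ℝ)) ∧
      ((ab.1 = 1 ∧ ab.2 = 3) ∨ (ab.1 = 3 ∧ ab.2 = 1)) := by
    intro k
    by_cases hk : k ∈ L
    · rcases hM k hk with h | h
      · exact ⟨(1, 3), fun _ => ⟨h, Or.inl ⟨rfl, rfl⟩⟩⟩
      · exact ⟨(3, 1), fun _ => ⟨h, Or.inr ⟨rfl, rfl⟩⟩⟩
    · exact ⟨(0, 0), fun h => absurd h hk⟩
  choose ab hab using hc
  obtain ⟨h, hleg, hins, hl, hr, -⟩ := w.jump (free := Fr) (cmp := cp) cp_step Fr.refl L.toFinset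
    (fun k => (ab k).1) (fun k => (ab k).2)
    (fun k hk => (hab k (List.mem_toFinset.mp hk)).1)
    (fun k hk => Or.inr (Or.inr (hab k (List.mem_toFinset.mp hk)).2))
    (fun k hk => hN k fun h' => hk (List.mem_toFinset.mpr h'))
  refine ⟨_, hr, ?_⟩
  have e : p = cp (h ∅) := by
    obtain ⟨v, h1, h2⟩ := (hp.and hl).exists
    rw [← h1, h2]
  have := reach_list hleg hins L ∅ hL (fun k hk => ⟨List.mem_toFinset.mpr hk,
    Finset.notMem_empty k, (hab k hk).2⟩)
  rw [foldl_insert, Finset.empty_union] at this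
  rw [e]
  exact this

/-- Passing the mark `V` of type `e|A` and marks of type `f|C` at the positions of `L`. -/
theorem jumpV {X : Fin 4 → Set ℝ} (w : RawT X) {u : ℝ} {L : List (Fin 6)} (hL : L.Nodup)
    (hL0 : (0 : Fin 6) ∉ L) (hV : VMark X u)
    (hM : ∀ k ∈ L, QMark X (u + (k.val : ℝ)))
    (hN : ∀ k ∉ L, k ≠ 0 → ∀ x y, u + (k.val : ℝ) ∈ X x → u + (k.val : ℝ) ∈ X y → Fr x y) :
    ∃ p q F, (∀ᶠ v in 𝓝[>] u, cp (stT X v) = q) ∧ (∀ᶠ v in 𝓝[<] (u + 1), cp (stT X v) = F) ∧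
      p < 20 ∧ F < 20 ∧ relN vr p F = true ∧ Reach L p q := by
  classical
  have hc : ∀ k : Fin 6, ∃ ab : Fin 4 × Fin 4, k ∈ L → Mark X ab.1 ab.2 (u + (k.val : ℝ)) ∧
      ((ab.1 = 1 ∧ ab.2 = 3) ∨ (ab.1 = 3 ∧ ab.2 = 1)) := by
    intro k
    by_cases hk : k ∈ L
    · rcases hM k hk with h | h
      · exact ⟨(1, 3), fun _ => ⟨h, Or.inl ⟨rfl, rfl⟩⟩⟩
      · exact ⟨(3, 1), fun _ => ⟨h, Or.inr ⟨rfl, rfl⟩⟩⟩
    · exact ⟨(0, 0), fun h => absurd h hk⟩
  choose ab hab using hc
  have hcV : ∃ ab : Fin 4 × Fin 4, Mark X ab.1 ab.2 u ∧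
      ((ab.1 = 0 ∧ ab.2 = 2) ∨ (ab.1 = 2 ∧ ab.2 = 0)) := by
    rcases hV with h | h
    · exact ⟨(0, 2), h, Or.inl ⟨rfl, rfl⟩⟩
    · exact ⟨(2, 0), h, Or.inr ⟨rfl, rfl⟩⟩
  obtain ⟨av, hav, hav2⟩ := hcV
  have e0 : u + ((0 : Fin 6).val : ℝ) = u := by simp
  obtain ⟨h, hleg, hins, hl, hr, hF⟩ := w.jump (free := Fr) (cmp := cp) cp_step Fr.refl
    (insert 0 L.toFinset)
    (fun k => if k = 0 then av.1 else (ab k).1) (fun k => if k = 0 then av.2 else (ab k).2)
    (by
      intro k hk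
      by_cases h0 : k = 0
      · subst h0
        rw [e0, if_pos rfl, if_pos rfl]
        exact hav
      · rw [if_neg h0, if_neg h0]
        rcases Finset.mem_insert.mp hk with h' | h'
        · exact absurd h' h0
        · exact (hab k (List.mem_toFinset.mp h')).1)
    (by
      intro k hk
      by_cases h0 : k = 0
      · rw [if_pos h0, if_pos h0]
        rcases hav2 with h1 | h1
        · exact Or.inl h1
        · exact Or.inr (Or.inl h1)
      · rw [if_neg h0, if_neg h0]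
        rcases Finset.mem_insert.mp hk with h' | h'
        · exact absurd h' h0
        · exact Or.inr (Or.inr (hab k (List.mem_toFinset.mp h')).2))
    (by
      intro k hk
      rw [Finset.mem_insert, not_or, List.mem_toFinset] at hk
      exact hN k hk.2 hk.1)
  obtain ⟨e1, e2⟩ := hins ∅ 0 (Finset.mem_insert_self _ _) (Finset.notMem_empty _)
  rw [if_pos rfl] at e1 e2
  refine ⟨cp (h (insert 0 ∅)), _, _, hr, hF, cp_lt (hleg _), ?_, ?_, ?_⟩
  · -- legality of the rotated hexagon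
    have : Leg4 (rot (h ∅)) := by
      obtain ⟨ha, hb⟩ := hleg ∅
      refine ⟨fun k => ha (k + 1), fun k => ?_⟩
      have := hb (k + 1)
      unfold rot
      have e : k + 3 + 1 = k + 1 + 3 := add_right_comm k 3 1
      rw [e]
      exact this
    exact cp_lt this
  · have hl2 := hleg (insert 0 ∅)
    rw [e2] at hl2 ⊢
    exact vr_step (hleg ∅) hl2 e1 hav2
  · have := reach_list hleg hins L (insert 0 ∅) hL (fun k hk => by
      have hk0 : k ≠ 0 := fun h' => hL0 (h' ▸ hk)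
      refine ⟨Finset.mem_insert_of_mem (List.mem_toFinset.mpr hk), ?_, ?_⟩
      · rw [Finset.mem_insert, not_or]
        exact ⟨hk0, Finset.notMem_empty k⟩
      · rw [if_neg hk0, if_neg hk0]
        exact (hab k hk).2)
    rw [foldl_insert] at this
    have e : (insert 0 ∅ : Finset (Fin 6)) ∪ L.toFinset = insert 0 L.toFinset := by
      ext j; simp [Finset.mem_insert]
    rw [e] at this
    exact this

section main
variable {X : Fin 4 → Set ℝ}

/-- **L2**: exactly one end `e|A` and exactly one end `f|C` is impossible. -/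
theorem L2 (w : RawT X) (h23 : ∀ u, u ∈ X 2 → u ∉ X 3) {V : ℝ} (hV : VMark X V)
    (hVu : ∀ u, u ∈ X 0 → u ∈ X 2 → ∃ n : ℤ, u = V + 6 * n)
    {k : Fin 6} {r : ℝ} (hr0 : 0 ≤ r) (hr1 : r < 1) (hQ : QMark X (V + r + (k.val : ℝ)))
    (hQu : ∀ u, u ∈ X 1 → u ∈ X 3 → ∃ n : ℤ, u = V + r + (k.val : ℝ) + 6 * n) : False := by
  have hfree : ∀ (s : ℝ), 0 ≤ s → s < 1 → ∀ (j : Fin 6) (x y : Fin 4), V + s + (j.val : ℝ) ∈ X x →
      V + s + (j.val : ℝ) ∈ X y → ¬ (s = 0 ∧ j = 0) → ¬ (s = r ∧ j = k) → Fr x y := by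
    intro s hs0 hs1 j x y hx hy n1 n2
    rcases nonfree h23 hx hy with h | ⟨h0, h2⟩ | ⟨h1, h3⟩
    · exact h
    · obtain ⟨n, hn⟩ := hVu _ h0 h2
      have : s + (j.val : ℝ) = 0 + ((0 : Fin 6).val : ℝ) + 6 * (n : ℝ) := by
        have : (((0 : Fin 6).val : ℕ) : ℝ) = 0 := by simp
        rw [this]; linarith
      exact absurd (eq_of_mod hs0 hs1 le_rfl one_pos this) n1
    · obtain ⟨n, hn⟩ := hQu _ h1 h3
      exact absurd (eq_of_mod hs0 hs1 hr0 hr1 (by linarith)) n2
  have hk0 : ¬ (r = 0 ∧ k = 0) := by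
    rintro ⟨h1, h2⟩
    subst h2
    have e : V + r + (((0 : Fin 6).val : ℕ) : ℝ) = V := by rw [h1]; simp
    rw [e] at hQ
    have hV0 : V ∈ X 0 := by rcases hV with h | h; exacts [h.mem_a, h.mem_b]
    rcases hQ with h | h <;> rcases h.only _ hV0 with h' | h' <;> exact absurd h' (by decide)
  have seg := fun {a b : ℝ} (hab : a < b) hf {p q : ℕ} hp hq =>
    w.seg (free := Fr) (cmp := cp) cp_step Fr.refl (a := a) (b := b) hab hf (p := p) (q := q) hp hq
  rcases eq_or_lt_of_le hr0 with h0 | h0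
  · -- tie
    subst h0
    have hkne : k ≠ 0 := fun h => hk0 ⟨rfl, h⟩
    obtain ⟨p, q, F, hq, hF, hp20, hF20, hvr, hre⟩ := jumpV (L := [k]) w (by simp)
      (by simpa using fun h => hkne h.symm) hV
      (by intro j hj; rw [List.mem_singleton] at hj; subst hj; simpa using hQ)
      (by
        intro j hj hj0 x y hx hy
        rw [List.mem_singleton] at hj
        exact hfree 0 le_rfl one_pos j x y (by simpa using hx) (by simpa using hy)
          (fun h => hj0 h.2) (fun h => hj h.2))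
    have := seg (a := V) (b := V + 1) (by linarith) (by
      intro u hu j x y hx hy
      refine hfree (u - V) (by linarith [hu.1]) (by linarith [hu.2]) j x y ?_ ?_ ?_ ?_
      · have e : V + (u - V) = u := by ring
        rw [e]; exact hx
      · have e : V + (u - V) = u := by ring
        rw [e]; exact hy
      · rintro ⟨h1, -⟩; linarith [hu.1]
      · rintro ⟨h1, -⟩; linarith [hu.1]) hq hF
    subst this
    exact no_one hp20 hF20 hvr hre
  · obtain ⟨p, q, F, hq, hF, hp20, hF20, hvr, hre⟩ := jumpV (L := []) w (by simp)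
      (by simp) hV (by intro j hj; simp at hj)
      (by
        intro j _ hj0 x y hx hy
        exact hfree 0 le_rfl one_pos j x y (by simpa using hx) (by simpa using hy)
          (fun h => hj0 h.2) (fun h => h0.ne h.1))
    have hpq : p = q := hre
    have hl : ∀ᶠ v in 𝓝[<] (V + r), cp (stT X v) = q := by
      have h1 : ∀ᶠ v in 𝓝[<] (V + r), v ∈ Ioo V (V + r) := Ioo_mem_nhdsLT (by linarith)
      have h2 : ∀ᶠ v in 𝓝[>] V, v ∈ Ioo V (V + r) := Ioo_mem_nhdsGT (by linarith)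
      obtain ⟨x, hx1, hx2⟩ := (hq.and h2).exists
      filter_upwards [h1] with v hv
      rw [← hx1]
      refine w.const_Ioo (free := Fr) (cmp := cp) cp_step Fr.refl (isPreconnected_Ioo) ?_ hv hx2
      intro u hu j x y hx hy
      refine hfree (u - V) (by linarith [hu.1]) (by linarith [hu.2]) j x y ?_ ?_ ?_ ?_
      · have e : V + (u - V) = u := by ring
        rw [e]; exact hx
      · have e : V + (u - V) = u := by ring
        rw [e]; exact hy
      · rintro ⟨h1, -⟩; linarith [hu.1]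
      · rintro ⟨h1, -⟩; linarith [hu.2]
    obtain ⟨q2, hq2, hre2⟩ := jumpQ (L := [k]) w (by simp)
      (by intro j hj; rw [List.mem_singleton] at hj; subst hj; exact hQ)
      (by
        intro j hj x y hx hy
        rw [List.mem_singleton] at hj
        exact hfree r hr0 hr1 j x y hx hy (fun h => h0.ne' h.1) (fun h => hj h.2)) hl
    have := seg (a := V + r) (b := V + 1) (by linarith) (by
      intro u hu j x y hx hy
      refine hfree (u - V) (by linarith [hu.1]) (by linarith [hu.2]) j x y ?_ ?_ ?_ ?_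
      · have e : V + (u - V) = u := by ring
        rw [e]; exact hx
      · have e : V + (u - V) = u := by ring
        rw [e]; exact hy
      · rintro ⟨h1, -⟩; linarith [hu.1]
      · rintro ⟨h1, -⟩; linarith [hu.1]) hq2 hF
    subst this
    subst hpq
    exact no_one hp20 hF20 hvr hre2

end main

variable {X : Fin 4 → Set ℝ}

/-- From the value on the right of `a` to the value on the left of `b`. -/
theorem left_of_right (w : RawT X) {a b : ℝ} (hab : a < b)
    (hf : ∀ u ∈ Ioo a b, ∀ k : Fin 6, ∀ x y, u + (k.val : ℝ) ∈ X x → u + (k.val : ℝ) ∈ X y → Fr x y)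
    {q : ℕ} (hq : ∀ᶠ v in 𝓝[>] a, cp (stT X v) = q) : ∀ᶠ v in 𝓝[<] b, cp (stT X v) = q := by
  have h1 : ∀ᶠ v in 𝓝[<] b, v ∈ Ioo a b := Ioo_mem_nhdsLT hab
  have h2 : ∀ᶠ v in 𝓝[>] a, v ∈ Ioo a b := Ioo_mem_nhdsGT hab
  obtain ⟨x, hx1, hx2⟩ := (hq.and h2).exists
  filter_upwards [h1] with v hv
  rw [← hx1]
  exact w.const_Ioo (free := Fr) (cmp := cp) cp_step Fr.refl (isPreconnected_Ioo) hf hv hx2

/-- The positions of the two ends `f|C` relative to the single end `e|A`. -/
theorem L3aux (w : RawT X) (h23 : ∀ u, u ∈ X 2 → u ∉ X 3) {V : ℝ} (hV : VMark X V)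
    (hVu : ∀ u, u ∈ X 0 → u ∈ X 2 → ∃ n : ℤ, u = V + 6 * n)
    {k l : Fin 6} {r s : ℝ} (hr0 : 0 ≤ r) (hrs : r ≤ s) (hs1 : s < 1)
    (hQ : QMark X (V + r + (k.val : ℝ))) (hQ' : QMark X (V + s + (l.val : ℝ)))
    (hne : ¬ (r = s ∧ k = l))
    (hQu : ∀ u, u ∈ X 1 → u ∈ X 3 → ∃ n : ℤ, u = V + r + (k.val : ℝ) + 6 * n ∨
      u = V + s + (l.val : ℝ) + 6 * n) : pat k.val l.val = true := by
  have hr1 : r < 1 := lt_of_le_of_lt hrs hs1
  have hs0 : 0 ≤ s := hr0.trans hrs
  have hfree : ∀ (t : ℝ), 0 ≤ t → t < 1 → ∀ (j : Fin 6) (x y : Fin 4), V + t + (j.val : ℝ) ∈ X x →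
      V + t + (j.val : ℝ) ∈ X y → ¬ (t = 0 ∧ j = 0) → ¬ (t = r ∧ j = k) → ¬ (t = s ∧ j = l) →
      Fr x y := by
    intro t ht0 ht1 j x y hx hy n1 n2 n3
    rcases nonfree h23 hx hy with h | ⟨h0, h2⟩ | ⟨h1, h3⟩
    · exact h
    · obtain ⟨n, hn⟩ := hVu _ h0 h2
      have : t + (j.val : ℝ) = 0 + ((0 : Fin 6).val : ℝ) + 6 * (n : ℝ) := by
        have : (((0 : Fin 6).val : ℕ) : ℝ) = 0 := by simp
        rw [this]; linarith
      exact absurd (eq_of_mod ht0 ht1 le_rfl one_pos this) n1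
    · obtain ⟨n, hn | hn⟩ := hQu _ h1 h3
      · exact absurd (eq_of_mod ht0 ht1 hr0 hr1 (by linarith)) n2
      · exact absurd (eq_of_mod ht0 ht1 hs0 hs1 (by linarith)) n3
  -- free on open intervals
  have hio : ∀ a b : ℝ, 0 ≤ a → b ≤ 1 → (∀ t ∈ Ioo a b, t ≠ r ∧ t ≠ s) →
      ∀ u ∈ Ioo (V + a) (V + b), ∀ j : Fin 6, ∀ x y, u + (j.val : ℝ) ∈ X x →
      u + (j.val : ℝ) ∈ X y → Fr x y := by
    intro a b ha hb hab u hu j x y hx hy
    have hu1 : a < u - V := by linarith [hu.1]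
    have hu2 : u - V < b := by linarith [hu.2]
    have hn := hab (u - V) ⟨hu1, hu2⟩
    have e : V + (u - V) = u := by ring
    refine hfree (u - V) (by linarith) (by linarith) j x y ?_ ?_ ?_ ?_ ?_
    · rw [e]; exact hx
    · rw [e]; exact hy
    · rintro ⟨h1, -⟩; linarith
    · rintro ⟨h1, -⟩; exact hn.1 h1
    · rintro ⟨h1, -⟩; exact hn.2 h1
  have hV0 : V ∈ X 0 := by rcases hV with h | h; exacts [h.mem_a, h.mem_b]
  have hno : ∀ (t : ℝ) (j : Fin 6), QMark X (V + t + (j.val : ℝ)) → ¬ (t = 0 ∧ j = 0) := by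
    rintro t j hj ⟨h1, h2⟩
    subst h2
    have e : V + t + (((0 : Fin 6).val : ℕ) : ℝ) = V := by rw [h1]; simp
    rw [e] at hj
    rcases hj with h | h <;> rcases h.only _ hV0 with h' | h' <;> exact absurd h' (by decide)
  have hk0 := hno r k hQ
  have hl0 := hno s l hQ'
  have fin : ∀ {a : ℝ} {q F : ℕ}, 0 ≤ a → a < 1 → (∀ t ∈ Ioo a 1, t ≠ r ∧ t ≠ s) →
      (∀ᶠ v in 𝓝[>] (V + a), cp (stT X v) = q) → (∀ᶠ v in 𝓝[<] (V + 1), cp (stT X v) = F) →
      q = F := by
    intro a q F ha ha1 hh hq hF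
    exact w.seg (free := Fr) (cmp := cp) cp_step Fr.refl (a := V + a) (b := V + 1) (by linarith)
      (hio a 1 ha le_rfl hh) hq hF
  have hV' : VMark X (V + 0) := by rw [add_zero]; exact hV
  rcases eq_or_lt_of_le hr0 with h0 | h0
  · have hkne : k ≠ 0 := fun h => hk0 ⟨h0.symm, h⟩
    rcases eq_or_lt_of_le hs0 with g0 | g0
    · -- both at time 0
      have hlne : l ≠ 0 := fun h => hl0 ⟨g0.symm, h⟩
      have hkl : k ≠ l := fun h => hne ⟨h0.symm.trans g0, h⟩
      obtain ⟨p, q, F, hq, hF, hp20, hF20, hvr, hre⟩ := jumpV (L := [k, l]) w (u := V)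
        (by simp [hkl])
        (by
          simp only [List.mem_cons, List.not_mem_nil, or_false, not_or]
          exact ⟨hkne.symm, hlne.symm⟩) hV
        (by
          intro j hj
          simp only [List.mem_cons, List.not_mem_nil, or_false] at hj
          rcases hj with rfl | rfl
          · rw [← h0, add_zero] at hQ; exact hQ
          · rw [← g0, add_zero] at hQ'; exact hQ')
        (by
          intro j hj hj0 x y hx hy
          simp only [List.mem_cons, List.not_mem_nil, or_false, not_or] at hj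
          exact hfree 0 le_rfl one_pos j x y (by simpa using hx) (by simpa using hy)
            (fun h => hj0 h.2) (fun h => hj.1 h.2) (fun h => hj.2 h.2))
      have := fin (a := 0) le_rfl one_pos (fun t ht => ⟨by rw [← h0]; exact ht.1.ne',
        by rw [← g0]; exact ht.1.ne'⟩) (by rw [add_zero]; exact hq) hF
      subst this
      exact pat_of hp20 hF20 hvr hre
    · obtain ⟨p, q, F, hq, hF, hp20, hF20, hvr, hre⟩ := jumpV (L := [k]) w (u := V)
        (by simp)
        (by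
          simp only [List.mem_cons, List.not_mem_nil, or_false]
          exact hkne.symm) hV
        (by
          intro j hj
          simp only [List.mem_cons, List.not_mem_nil, or_false] at hj
          subst hj
          rw [← h0, add_zero] at hQ; exact hQ)
        (by
          intro j hj hj0 x y hx hy
          simp only [List.mem_cons, List.not_mem_nil, or_false] at hj
          exact hfree 0 le_rfl one_pos j x y (by simpa using hx) (by simpa using hy)
            (fun h => hj0 h.2) (fun h => hj h.2) (fun h => g0.ne h.1))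
      have hl := left_of_right w (a := V + 0) (b := V + s) (by linarith)
        (hio 0 s le_rfl hs1.le (fun t ht => ⟨by rw [← h0]; exact ht.1.ne', ht.2.ne⟩))
        (by rw [add_zero]; exact hq)
      obtain ⟨q2, hq2, hre2⟩ := jumpQ (L := [l]) w (by simp)
        (by intro j hj; rw [List.mem_singleton] at hj; subst hj; exact hQ')
        (by
          intro j hj x y hx hy
          rw [List.mem_singleton] at hj
          exact hfree s hs0 hs1 j x y hx hy (fun h => g0.ne' h.1)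
            (fun h => g0.ne' (h.1.trans h0.symm)) (fun h => hj h.2)) hl
      have := fin (a := s) hs0 hs1 (fun t ht => ⟨by rw [← h0]; exact (g0.trans ht.1).ne',
        ht.1.ne'⟩) hq2 hF
      subst this
      exact pat_of hp20 hF20 hvr (Reach.append hre hre2)
  · have g0 : 0 < s := lt_of_lt_of_le h0 hrs
    obtain ⟨p, q, F, hq, hF, hp20, hF20, hvr, hre⟩ := jumpV (L := []) w (u := V) (by simp)
      (by simp) hV (by intro j hj; simp at hj)
      (by
        intro j _ hj0 x y hx hy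
        exact hfree 0 le_rfl one_pos j x y (by simpa using hx) (by simpa using hy)
          (fun h => hj0 h.2) (fun h => h0.ne h.1) (fun h => g0.ne h.1))
    have hpq : p = q := hre
    have hl := left_of_right w (a := V + 0) (b := V + r) (by linarith)
      (hio 0 r le_rfl hr1.le (fun t ht => ⟨ht.2.ne, (lt_of_lt_of_le ht.2 hrs).ne⟩))
      (by rw [add_zero]; exact hq)
    rcases eq_or_lt_of_le hrs with e | e
    · -- tie at `r = s`
      subst e
      have hkl : k ≠ l := fun h => hne ⟨rfl, h⟩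
      obtain ⟨q2, hq2, hre2⟩ := jumpQ (L := [k, l]) w (by simp [hkl])
        (by
          intro j hj
          simp only [List.mem_cons, List.not_mem_nil, or_false] at hj
          rcases hj with rfl | rfl
          · exact hQ
          · exact hQ')
        (by
          intro j hj x y hx hy
          simp only [List.mem_cons, List.not_mem_nil, or_false, not_or] at hj
          exact hfree r hr0 hr1 j x y hx hy (fun h => h0.ne' h.1)
            (fun h => hj.1 h.2) (fun h => hj.2 h.2)) hl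
      have := fin (a := r) hr0 hr1 (fun t ht => ⟨ht.1.ne', ht.1.ne'⟩) hq2 hF
      subst this
      subst hpq
      exact pat_of hp20 hF20 hvr hre2
    · obtain ⟨q2, hq2, hre2⟩ := jumpQ (L := [k]) w (by simp)
        (by intro j hj; rw [List.mem_singleton] at hj; subst hj; exact hQ)
        (by
          intro j hj x y hx hy
          rw [List.mem_singleton] at hj
          exact hfree r hr0 hr1 j x y hx hy (fun h => h0.ne' h.1)
            (fun h => hj h.2) (fun h => e.ne h.1)) hl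
      have hl2 := left_of_right w (a := V + r) (b := V + s) (by linarith)
        (hio r s hr0 hs1.le (fun t ht => ⟨ht.1.ne', ht.2.ne⟩)) hq2
      obtain ⟨q3, hq3, hre3⟩ := jumpQ (L := [l]) w (by simp)
        (by intro j hj; rw [List.mem_singleton] at hj; subst hj; exact hQ')
        (by
          intro j hj x y hx hy
          rw [List.mem_singleton] at hj
          exact hfree s hs0 hs1 j x y hx hy (fun h => g0.ne' h.1)
            (fun h => e.ne' h.1) (fun h => hj h.2)) hl2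
      have := fin (a := s) hs0 hs1 (fun t ht => ⟨(e.trans ht.1).ne', ht.1.ne'⟩) hq3 hF
      subst this
      subst hpq
      exact pat_of hp20 hF20 hvr (Reach.append hre2 hre3)

/-- **L3**: if there is exactly one end `V` of type `e|A` and there are exactly two ends `Q`, `Q'` of
type `f|C`, in `(V, V + 6)`, then the centre lies in the open triangle of the three ends. -/
theorem L3 (w : RawT X) (h23 : ∀ u, u ∈ X 2 → u ∉ X 3) (anti : ∀ u, u ∈ X 2 → u + 3 ∉ X 3)
    {V Q Q' : ℝ} (hV : VMark X V)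
    (hVu : ∀ u, u ∈ X 0 → u ∈ X 2 → ∃ n : ℤ, u = V + 6 * n)
    (hQ : QMark X Q) (hQ' : QMark X Q') (h1 : V < Q) (h2 : Q < Q') (h3 : Q' < V + 6)
    (hQu : ∀ u, u ∈ X 1 → u ∈ X 3 → ∃ n : ℤ, u = Q + 6 * n ∨ u = Q' + 6 * n) :
    Q < V + 3 ∧ V + 3 < Q' ∧ Q' < Q + 3 := by
  have hV2 : V ∈ X 2 := by rcases hV with h | h; exacts [h.mem_b, h.mem_a]
  have hQ3 : Q ∈ X 3 := by rcases hQ with h | h; exacts [h.mem_b, h.mem_a]
  have hQ3' : Q' ∈ X 3 := by rcases hQ' with h | h; exacts [h.mem_b, h.mem_a]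
  have nQ : Q ≠ V + 3 := fun h => anti V hV2 (h ▸ hQ3)
  have nQ' : Q' ≠ V + 3 := fun h => anti V hV2 (h ▸ hQ3')
  -- integer and fractional parts
  have dec : ∀ T : ℝ, V < T → T < V + 6 → ∃ (k : Fin 6) (r : ℝ), 0 ≤ r ∧ r < 1 ∧
      T = V + r + (k.val : ℝ) := by
    intro T hT1 hT2
    have hf0 : 0 ≤ ⌊T - V⌋ := Int.floor_nonneg.mpr (by linarith)
    have hf6 : ⌊T - V⌋ < 6 := by
      rw [Int.floor_lt]; push_cast; linarith
    refine ⟨⟨⌊T - V⌋.toNat, by omega⟩, Int.fract (T - V), Int.fract_nonneg _,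
      Int.fract_lt_one _, ?_⟩
    have e : ((⌊T - V⌋.toNat : ℕ) : ℝ) = (⌊T - V⌋ : ℝ) := by
      have : ((⌊T - V⌋.toNat : ℤ)) = ⌊T - V⌋ := Int.toNat_of_nonneg hf0
      exact_mod_cast congrArg (Int.cast : ℤ → ℝ) this
    show T = V + Int.fract (T - V) + ((⌊T - V⌋.toNat : ℕ) : ℝ)
    rw [e]
    have := Int.floor_add_fract (T - V)
    linarith
  obtain ⟨k, r, hr0, hr1, hk⟩ := dec Q h1 (h2.trans h3)
  obtain ⟨l, s, hs0, hs1, hl⟩ := dec Q' (h1.trans h2) h3
  have hne : ¬ (r = s ∧ k = l) := by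
    rintro ⟨e1, e2⟩
    rw [hk, hl, e1, e2] at h2
    exact lt_irrefl _ h2
  have c1 : r ≤ s → pat k.val l.val = true := fun hrs =>
    L3aux w h23 hV hVu hr0 hrs hs1 (hk ▸ hQ) (hl ▸ hQ') hne (fun u a b => by
      obtain ⟨n, hn⟩ := hQu u a b
      refine ⟨n, ?_⟩
      rw [← hk, ← hl]; exact hn)
  have c2 : s ≤ r → pat l.val k.val = true := fun hrs =>
    L3aux w h23 hV hVu hs0 hrs hr1 (hl ▸ hQ') (hk ▸ hQ) (fun h => hne ⟨h.1.symm, h.2.symm⟩)
      (fun u a b => by
        obtain ⟨n, hn⟩ := hQu u a b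
        refine ⟨n, ?_⟩
        rw [← hk, ← hl]; exact hn.symm)
  have key : ∀ {a b : ℕ}, k.val = a → l.val = b → Q = V + r + (a : ℝ) ∧ Q' = V + s + (b : ℝ) := by
    intro a b ha hb
    rw [hk, hl, ha, hb]
    exact ⟨rfl, rfl⟩
  rcases lt_trichotomy r s with hrs | hrs | hrs
  · rcases pat_cases (c1 hrs.le) with ⟨a, b⟩ | ⟨a, b⟩ | ⟨a, b⟩ | ⟨a, b⟩ | ⟨a, b⟩ | ⟨a, b⟩ | ⟨a, b⟩ |
      ⟨a, b⟩ <;> obtain ⟨e1, e2⟩ := key a b <;> push_cast at e1 e2 <;>
      first
        | (exfalso; linarith)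
        | (refine ⟨?_, lt_of_le_of_ne (by linarith) (Ne.symm nQ'), ?_⟩ <;> linarith)
  · rcases pat_cases (c1 hrs.le) with ⟨a, b⟩ | ⟨a, b⟩ | ⟨a, b⟩ | ⟨a, b⟩ | ⟨a, b⟩ | ⟨a, b⟩ | ⟨a, b⟩ |
      ⟨a, b⟩ <;> have d := pat_cases (c2 hrs.ge) <;> rw [a, b] at d <;>
      first
        | (exfalso; omega)
        | (obtain ⟨e1, e2⟩ := key a b
           push_cast at e1 e2
           first
             | (exfalso; linarith)
             | (refine ⟨?_, lt_of_le_of_ne (by linarith) (Ne.symm nQ'), ?_⟩ <;> linarith))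
  · rcases pat_cases (c2 hrs.le) with ⟨b, a⟩ | ⟨b, a⟩ | ⟨b, a⟩ | ⟨b, a⟩ | ⟨b, a⟩ | ⟨b, a⟩ | ⟨b, a⟩ |
      ⟨b, a⟩ <;> obtain ⟨e1, e2⟩ := key a b <;> push_cast at e1 e2 <;>
      first
        | (exfalso; linarith)
        | (refine ⟨?_, lt_of_le_of_ne (by linarith) (Ne.symm nQ'), ?_⟩ <;> linarith)


end Vale.Agent.P032.Words.Tie
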